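import Mathlib

/-!
# P030, archimedean side: determinants bounded column by column (Gram-Schmidt)

`det_le_of_flag`: if for every column `a` every coefficient vector `c` with `‖c i‖ ≤ 1` which is
killed by all earlier columns satisfies `‖∑ c i * A i a‖ ≤ B a`, then `‖det A‖ ≤ ∏ B a`.
-/

open Finset Matrix

noncomputable section

namespace Vale.Agent.P030.H826

variable {ι : Type*} [Fintype ι] [DecidableEq ι]

/-- the `l²` form -/
theorem det_le_of_flag_l2 (r : ι → ℕ) (hr : Function.Injective r) (A : Matrix ι ι ℂ) (B : ι → ℝ)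
    (h : ∀ a, ∀ c : ι → ℂ, ∑ i, ‖c i‖ ^ 2 ≤ 1 → (∀ b, r b < r a → ∑ i, c i * A i b = 0) →
      ‖∑ i, c i * A i a‖ ≤ B a) : ‖A.det‖ ≤ ∏ a, B a := by
  classical
  let _ : LinearOrder ι := LinearOrder.lift' r hr
  let _ : LocallyFiniteOrderBot ι :=
    LocallyFiniteOrderBot.ofIic ι (fun a => Finset.univ.filter (· ≤ a)) (by simp)
  have hlt : ∀ a b : ι, a < b ↔ r a < r b := fun a b => Iff.rfl
  let f : ι → EuclideanSpace ℂ ι := fun a => WithLp.toLp 2 (fun i => A i a)
  have hdim : Module.finrank ℂ (EuclideanSpace ℂ ι) = Fintype.card ι := finrank_euclideanSpace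
  let g := InnerProductSpace.gramSchmidtOrthonormalBasis hdim f
  have h1 : g.toBasis.det f = ∏ i, inner ℂ (g i) (f i) :=
    InnerProductSpace.gramSchmidtOrthonormalBasis_det hdim f
  have h2 : ∀ i, ‖inner ℂ (g i) (f i)‖ ≤ B i := by
    intro a
    have h3 := h a (fun i => (starRingEnd ℂ) (g a i)) ?_ ?_
    · refine le_trans (le_of_eq ?_) h3
      congr 1
      rw [PiLp.inner_apply]
      refine Finset.sum_congr rfl fun i _ => ?_
      simp [f, mul_comm]
    · have h4 : ‖g a‖ = 1 := g.orthonormal.1 a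
      have h5 := EuclideanSpace.norm_sq_eq (g a)
      rw [h4] at h5
      simp only [RCLike.norm_conj]
      rw [← h5]
      norm_num
    · intro b hb
      have h6 : inner ℂ (g a) (f b) = 0 :=
        InnerProductSpace.gramSchmidtOrthonormalBasis_inv_triangular hdim f ((hlt b a).2 hb)
      rw [PiLp.inner_apply] at h6
      rw [← h6]
      refine Finset.sum_congr rfl fun i _ => ?_
      simp [f, mul_comm]
  -- compare the two determinants
  let e := EuclideanSpace.basisFun ι ℂ
  have h7 : e.toBasis.det f = A.det := by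
    rw [Module.Basis.det_apply]
    congr 1
  have h8 : ‖e.toBasis.det f‖ = ‖g.toBasis.det f‖ := by
    have h9 : e.toBasis.det f = e.toBasis.det g.toBasis * g.toBasis.det f := by
      rw [Module.Basis.det_apply, Module.Basis.det_apply, Module.Basis.det_apply,
        ← Matrix.det_mul, Module.Basis.toMatrix_mul_toMatrix]
    rw [h9, norm_mul]
    have h10 : ‖e.toBasis.det g.toBasis‖ = 1 := by
      simp
    rw [h10, one_mul]
  rw [← h7, h8, h1, norm_prod]
  exact Finset.prod_le_prod (fun i _ => norm_nonneg _) fun i _ => h2 i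

/-- the `sup` form -/
theorem det_le_of_flag (r : ι → ℕ) (hr : Function.Injective r) (A : Matrix ι ι ℂ) (B : ι → ℝ)
    (h : ∀ a, ∀ c : ι → ℂ, (∀ i, ‖c i‖ ≤ 1) → (∀ b, r b < r a → ∑ i, c i * A i b = 0) →
      ‖∑ i, c i * A i a‖ ≤ B a) : ‖A.det‖ ≤ ∏ a, B a := by
  refine det_le_of_flag_l2 r hr A B fun a c hc hb => h a c (fun i => ?_) hb
  have h1 : ‖c i‖ ^ 2 ≤ ∑ j, ‖c j‖ ^ 2 :=
    Finset.single_le_sum (f := fun j => ‖c j‖ ^ 2) (fun j _ => sq_nonneg _) (Finset.mem_univ i)
  nlinarith [norm_nonneg (c i)]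

end Vale.Agent.P030.H826
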