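import Mathlib

/-!
# P030, archimedean side: Jensen's inequality for one function with prescribed zeros
-/

open Finset Filter Topology Metric Real MeromorphicOn

noncomputable section

namespace Vale.Agent.P030.H826

/-- a function which is nonzero at the centre has only finitely many zeros on the closed disc -/
theorem finite_zeros {s : ℂ → ℂ} (hs : AnalyticOnNhd ℂ s (closedBall 0 1))
    (htop : ∀ z ∈ closedBall (0 : ℂ) 1, analyticOrderAt s z ≠ ⊤) :
    {z ∈ closedBall (0 : ℂ) 1 | s z = 0}.Finite := by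
  have h1 := (divisor s (closedBall (0 : ℂ) 1)).finiteSupport (isCompact_closedBall _ _)
  refine h1.subset ?_
  rintro z ⟨hz, h0⟩
  rw [Function.mem_support, hs.divisor_apply hz]
  have h2 : analyticOrderAt s z ≠ 0 := by
    rw [analyticOrderAt_ne_zero]
    exact ⟨hs z hz, h0⟩
  have h3 := htop z hz
  obtain ⟨m, hm⟩ := ENat.ne_top_iff_exists.1 h3
  rw [← hm] at h2 ⊢
  simpa using h2

theorem circleAverage_log_le {s : ℂ → ℂ} (hs : AnalyticOnNhd ℂ s (closedBall 0 1))
    (htop : ∀ z ∈ closedBall (0 : ℂ) 1, analyticOrderAt s z ≠ ⊤) {u : ℂ → ℝ}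
    (hu : CircleIntegrable u 0 1) (hle : ∀ z, ‖z‖ = 1 → ‖s z‖ ≤ Real.exp (u z)) :
    circleAverage (fun z => Real.log ‖s z‖) 0 1 ≤ circleAverage u 0 1 := by
  have hint : CircleIntegrable (fun z => Real.log ‖s z‖) 0 1 := by
    refine MeromorphicOn.circleIntegrable_log_norm ?_
    refine (hs.mono ?_).meromorphicOn
    rw [abs_one]
    exact sphere_subset_closedBall
  unfold circleAverage
  simp only [smul_eq_mul]
  refine mul_le_mul_of_nonneg_left ?_ (by positivity)
  refine intervalIntegral.integral_mono_ae (by positivity) hint hu ?_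
  have hfin : {θ ∈ Set.Ioc (0 : ℝ) (2 * π) | s (circleMap 0 1 θ) = 0}.Finite := by
    have h1 := finite_zeros hs htop
    refine Set.Finite.of_finite_image (f := circleMap 0 1) (h1.subset ?_) ?_
    · rintro _ ⟨θ, ⟨-, hθ⟩, rfl⟩
      exact ⟨circleMap_mem_closedBall 0 zero_le_one θ, hθ⟩
    · have h2 := injOn_circleMap_of_abs_sub_le (c := 0) (R := 1) one_ne_zero (a := 0) (b := 2 * π)
        (by rw [zero_sub, abs_neg, abs_of_pos (by positivity)])
      rw [Set.uIoc_of_le (by positivity)] at h2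
      exact h2.mono fun θ hθ => hθ.1
  have hfin2 : {θ : ℝ | s (circleMap 0 1 θ) = 0}.Countable := by
    have h1 := finite_zeros hs htop
    have h2 : {θ : ℝ | s (circleMap 0 1 θ) = 0} =
        ⋃ z ∈ {z ∈ closedBall (0 : ℂ) 1 | s z = 0}, (circleMap 0 1) ⁻¹' {z} := by
      ext θ
      simp only [Set.mem_ofPred_eq, Set.mem_iUnion, Set.mem_preimage, Set.mem_singleton_iff,
        exists_prop, exists_eq_right']
      exact ⟨fun h => ⟨circleMap_mem_closedBall 0 zero_le_one θ, h⟩, fun h => h.2⟩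
    rw [h2]
    refine h1.countable.biUnion fun z _ => ?_
    exact (Set.countable_singleton z).preimage_circleMap 0 one_ne_zero
  have h3 : ∀ᵐ θ : ℝ, θ ∉ {θ : ℝ | s (circleMap 0 1 θ) = 0} :=
    hfin2.ae_notMem _
  filter_upwards [h3] with θ hθ
  have h4 : 0 < ‖s (circleMap 0 1 θ)‖ := norm_pos_iff.2 hθ
  rw [Real.log_le_iff_le_exp h4]
  exact hle _ (by simp)

/-- **Jensen's inequality with prescribed zeros.** -/
theorem jensen_coeff {s g : ℂ → ℂ} (hs : AnalyticOnNhd ℂ s (closedBall 0 1)) {n : ℕ}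
    (hg : AnalyticAt ℂ g 0) (hsg : ∀ᶠ z in 𝓝 (0 : ℂ), s z = z ^ n * g z)
    {κ : Type*} [Fintype κ] {ζ : κ → ℂ} (h1 : ∀ i, ‖ζ i‖ < 1) (h0 : ∀ i, ζ i ≠ 0)
    (hinj : Function.Injective ζ) {k : κ → ℕ} (hk : ∀ i, (k i : ℕ∞) ≤ analyticOrderAt s (ζ i))
    {u : ℂ → ℝ} (hu : CircleIntegrable u 0 1) (hle : ∀ z, ‖z‖ = 1 → ‖s z‖ ≤ Real.exp (u z)) :
    ‖g 0‖ ≤ (∏ i, ‖ζ i‖ ^ k i) * Real.exp (circleAverage u 0 1) := by
  classical
  by_cases hg0 : g 0 = 0
  · rw [hg0, norm_zero]
    positivity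
  -- orders are finite
  have hs0 : analyticOrderAt s 0 ≠ ⊤ := by
    rw [Ne, analyticOrderAt_eq_top]
    intro hcon
    have h2 : ∀ᶠ z in 𝓝 (0 : ℂ), g z ≠ 0 := hg.continuousAt.eventually_ne hg0
    have h3 : ∀ᶠ z in 𝓝 (0 : ℂ), z = 0 := by
      filter_upwards [hcon, h2, hsg] with z ha hb hc
      rw [hc] at ha
      rcases mul_eq_zero.1 ha with h | h
      · by_contra hz
        exact pow_ne_zero n hz h
      · exact absurd h hb
    have h4 : ({0} : Set ℂ) ∈ 𝓝 (0 : ℂ) := h3
    exact (not_isOpen_singleton (0 : ℂ)) (isOpen_singleton_iff_nhds_eq_pure _ |>.2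
      (le_antisymm (by rw [Filter.le_pure_iff]; exact h4) (pure_le_nhds _)))
  have htop : ∀ z ∈ closedBall (0 : ℂ) 1, analyticOrderAt s z ≠ ⊤ := fun z hz =>
    hs.analyticOrderAt_ne_top_of_isPreconnected (convex_closedBall _ _).isPreconnected
      (mem_closedBall_self zero_le_one) hz hs0
  have htr : meromorphicTrailingCoeffAt s 0 = g 0 := by
    refine hg.meromorphicTrailingCoeffAt_of_ne_zero_of_eq_nhdsNE (n := n) hg0 ?_
    filter_upwards [hsg.filter_mono nhdsWithin_le_nhds] with z hz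
    rw [hz]
    simp
  have hJ := (MeromorphicOn.circleAverage_log_norm (c := 0) (R := 1) (f := s) one_ne_zero
    (by rw [abs_one]; exact hs.meromorphicOn))
  rw [htr, abs_one, Real.log_one, mul_zero, add_zero] at hJ
  have hmono := circleAverage_log_le hs htop hu hle
  -- lower bound for the zeros
  have hdiv : ∀ z ∈ closedBall (0 : ℂ) 1, 0 ≤ divisor s (closedBall (0 : ℂ) 1) z := by
    intro z _
    exact hs.divisor_nonneg z
  have hsum : ∑ i, (k i : ℝ) * Real.log (‖ζ i‖⁻¹) ≤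
      ∑ᶠ z, (divisor s (closedBall (0 : ℂ) 1) z : ℝ) * Real.log (1 * ‖(0 : ℂ) - z‖⁻¹) := by
    have hfs := (divisor s (closedBall (0 : ℂ) 1)).finiteSupport (isCompact_closedBall _ _)
    have hsub : (Function.support fun z => (divisor s (closedBall (0 : ℂ) 1) z : ℝ) *
        Real.log (1 * ‖(0 : ℂ) - z‖⁻¹)) ⊆ (hfs.toFinset ∪ Finset.univ.image ζ : Finset ℂ) := by
      intro z hz
      rw [Finset.coe_union]
      left
      rw [Set.Finite.coe_toFinset]
      intro hcon
      apply hz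
      simp only
      rw [hcon]
      simp
    rw [finsum_eq_sum_of_support_subset _ hsub]
    have h5 : ∑ i, (k i : ℝ) * Real.log (‖ζ i‖⁻¹) ≤ ∑ z ∈ Finset.univ.image ζ,
        (divisor s (closedBall (0 : ℂ) 1) z : ℝ) * Real.log (1 * ‖(0 : ℂ) - z‖⁻¹) := by
      rw [Finset.sum_image fun a _ b _ h => hinj h]
      refine Finset.sum_le_sum fun i _ => ?_
      rw [one_mul, zero_sub, norm_neg]
      refine mul_le_mul_of_nonneg_right ?_ ?_
      · have hmem : ζ i ∈ closedBall (0 : ℂ) 1 := by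
          rw [mem_closedBall_zero_iff]
          exact (h1 i).le
        rw [hs.divisor_apply hmem]
        obtain ⟨m, hm⟩ := ENat.ne_top_iff_exists.1 (htop _ hmem)
        have h6 := hk i
        rw [← hm] at h6 ⊢
        have h7 : k i ≤ m := by exact_mod_cast h6
        have h8 : ((m : ℕ∞).map (Nat.cast : ℕ → ℤ)) = ((m : ℤ) : WithTop ℤ) := rfl
        rw [h8]
        simp only [WithTop.untop₀_coe]
        exact_mod_cast h7
      · refine Real.log_nonneg ?_
        rw [one_le_inv₀ (norm_pos_iff.2 (h0 i))]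
        exact (h1 i).le
    refine h5.trans (Finset.sum_le_sum_of_subset_of_nonneg Finset.subset_union_right ?_)
    intro z _ _
    by_cases hz : z ∈ closedBall (0 : ℂ) 1
    · refine mul_nonneg (by exact_mod_cast hdiv z hz) ?_
      rw [one_mul, zero_sub, norm_neg]
      rcases eq_or_ne z 0 with rfl | hz0
      · simp
      · refine Real.log_nonneg ?_
        rw [one_le_inv₀ (norm_pos_iff.2 hz0)]
        exact mem_closedBall_zero_iff.1 hz
    · rw [Function.locallyFinsuppWithin.apply_eq_zero_of_notMem _ hz]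
      simp
  have h9 : Real.log ‖g 0‖ ≤ circleAverage u 0 1 - ∑ i, (k i : ℝ) * Real.log (‖ζ i‖⁻¹) := by
    have : circleAverage (fun z => Real.log ‖s z‖) 0 1 =
      ∑ᶠ z, (divisor s (closedBall (0 : ℂ) 1) z : ℝ) * Real.log (1 * ‖(0 : ℂ) - z‖⁻¹) +
        Real.log ‖g 0‖ := hJ
    linarith
  have hpos : 0 < ‖g 0‖ := norm_pos_iff.2 hg0
  rw [← Real.exp_log hpos]
  refine (Real.exp_le_exp.2 h9).trans (le_of_eq ?_)
  rw [Real.exp_sub, div_eq_mul_inv, mul_comm, ← Real.exp_neg, ← Finset.sum_neg_distrib,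
    Real.exp_sum]
  congr 1
  refine Finset.prod_congr rfl fun i _ => ?_
  rw [Real.log_inv, mul_neg, neg_neg, ← Real.log_pow, Real.exp_log]
  exact pow_pos (norm_pos_iff.2 (h0 i)) _

end Vale.Agent.P030.H826
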